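import Crest.Agent.R192.I.Fin

/-! R192, block I (helper79): discretisation of the time variable. -/

set_option autoImplicit false

open Complex Finset Filter MeasureTheory
open scoped Topology

noncomputable section

namespace Crest.Agent.R192.I

variable {N : ℕ}

/-- integral over the `p`-th of `r` cells -/
def ci {E : Type} [NormedAddCommGroup E] [NormedSpace ℝ E] (r : ℕ) (f : ℝ → E) (p : ℕ) : E :=
  ∫ σ in ((p : ℝ) / r)..(((p + 1 : ℕ) : ℝ) / r), f σ

section
variable {E : Type} [NormedAddCommGroup E] [NormedSpace ℝ E]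

theorem sum_ci (r : ℕ) {f : ℝ → E} (hf : Continuous f) (m : ℕ) :
    ∑ p ∈ range m, ci r f p = ∫ σ in (0 : ℝ)..((m : ℝ) / r), f σ := by
  have := intervalIntegral.sum_integral_adjacent_intervals (μ := volume) (f := f) (a := fun p : ℕ => (p : ℝ) / r)
    (n := m) fun _ _ => hf.intervalIntegrable _ _
  simpa [ci] using this

theorem sum_ci_one {r : ℕ} (hr : r ≠ 0) {f : ℝ → E} (hf : Continuous f) :
    ∑ p : Fin r, ci r f p = ∫ σ in (0 : ℝ)..1, f σ := by
  rw [Fin.sum_univ_eq_sum_range, sum_ci r hf, div_self (by exact_mod_cast hr)]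

theorem cell_le (r p : ℕ) : (p : ℝ) / r ≤ ((p + 1 : ℕ) : ℝ) / r := by
  gcongr; omega

end

theorem ci_apply (r : ℕ) {f : ℝ → Fin N → ℂ} (hf : Continuous f) (p : ℕ) (i : Fin N) :
    ci r f p i = ci r (fun σ => f σ i) p :=
  ((ContinuousLinearMap.proj (R := ℝ) (φ := fun _ : Fin N => ℂ) i).intervalIntegral_comp_comm
    (hf.intervalIntegrable _ _)).symm

/-- the scaling map -/
def sc (lm : Fin N → ℝ) : (Fin N → ℂ) →L[ℝ] EuclideanSpace ℂ (Fin N) :=
  LinearMap.toContinuousLinearMap
    { toFun := fun v => WithLp.toLp 2 fun l => v l / lm l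
      map_add' := fun v w => by ext l; simp [add_div]
      map_smul' := fun c v => by ext l; simp [mul_div_assoc] }

theorem nl_eq {lm : Fin N → ℝ} (hl : ∀ l, 0 < lm l) (v : Fin N → ℂ) : nl lm v = ‖sc lm v‖ := by
  rw [EuclideanSpace.norm_eq, nl]
  congr 1
  refine sum_congr rfl fun l _ => ?_
  simp [sc, abs_of_pos (hl l)]

theorem continuous_nl {lm : Fin N → ℝ} (hl : ∀ l, 0 < lm l) {f : ℝ → Fin N → ℂ} (hf : Continuous f) :
    Continuous fun σ => nl lm (f σ) := by
  simp only [nl_eq hl]; fun_prop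

theorem sum_nl_ci {lm : Fin N → ℝ} (hl : ∀ l, 0 < lm l) {r : ℕ} (hr : r ≠ 0) {f : ℝ → Fin N → ℂ}
    (hf : Continuous f) : ∑ p : Fin r, nl lm (ci r f p) ≤ ∫ σ in (0 : ℝ)..1, nl lm (f σ) := by
  rw [← sum_ci_one hr (continuous_nl hl hf)]
  refine sum_le_sum fun p _ => ?_
  simp only [nl_eq hl, ci]
  rw [← (sc lm).intervalIntegral_comp_comm (hf.intervalIntegrable _ _)]
  exact intervalIntegral.norm_integral_le_integral_norm (cell_le _ _)

theorem tendsto_cells {f h : ℝ → ℂ} (hf : Continuous f) (hh : Continuous h) (g : ℂ) :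
    Tendsto (fun r : ℕ => ∑ p : Fin r, ∑ p' : Fin r,
      (g + if (p : ℕ) < p' then 1 else 0) * (ci r f p * ci r h p')) atTop
      (𝓝 (∫ σ' in (0 : ℝ)..1, (g * (∫ σ in (0 : ℝ)..1, f σ) + ∫ σ in (0 : ℝ)..σ', f σ) * h σ')) := by
  obtain ⟨C, hC⟩ := isCompact_Icc.exists_bound_of_continuousOn (s := Set.Icc (0 : ℝ) 1) hf.continuousOn
  obtain ⟨C', hC'⟩ := isCompact_Icc.exists_bound_of_continuousOn (s := Set.Icc (0 : ℝ) 1) hh.continuousOn
  have hC0 : 0 ≤ C := (norm_nonneg _).trans (hC 0 (by simp))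
  set G : ℝ → ℂ := fun x => g * (∫ σ in (0 : ℝ)..1, f σ) + ∫ σ in (0 : ℝ)..x, f σ with hG
  have hGc : Continuous G :=
    continuous_const.add (intervalIntegral.continuous_primitive (fun _ _ => hf.intervalIntegrable _ _) 0)
  rw [tendsto_iff_norm_sub_tendsto_zero]
  refine squeeze_zero' (Eventually.of_forall fun _ => norm_nonneg _) ?_
    (tendsto_const_div_atTop_nhds_zero_nat (C * C'))
  filter_upwards [eventually_ne_atTop 0] with r hr
  have hr' : (0 : ℝ) < r := by positivity
  have e1 : ∀ p' : Fin r, ∑ p : Fin r, (g + if (p : ℕ) < p' then 1 else 0) * (ci r f p * ci r h p') =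
      G ((p' : ℕ) / r) * ci r h p' := by
    intro p'
    simp only [← mul_assoc, ← sum_mul, add_mul, sum_add_distrib, ← mul_sum, sum_ci_one hr hf, hG]
    congr 2
    rw [← sum_ci r hf, Fin.sum_univ_eq_sum_range (fun p => (if p < (p' : ℕ) then (1 : ℂ) else 0) * ci r f p)]
    simp only [ite_mul, one_mul, zero_mul]
    rw [← sum_filter]
    congr 1
    ext p
    have := p'.2
    simp only [mem_filter, mem_range]; omega
  rw [sum_comm, sum_congr rfl fun p' _ => e1 p', ← sum_ci_one hr (f := fun σ' => G σ' * h σ') (hGc.mul hh),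
    ← sum_sub_distrib]
  refine (norm_sum_le _ _).trans ((sum_le_card_nsmul _ _ (C * C' / r / r) fun p _ => ?_).trans_eq ?_)
  · have hp : ((p + 1 : ℕ) : ℝ) / r ≤ 1 := by
      rw [div_le_one hr']; exact_mod_cast p.2
    have hp0 : (0 : ℝ) ≤ (p : ℕ) / r := by positivity
    have hw : ((p + 1 : ℕ) : ℝ) / r - (p : ℕ) / r = 1 / r := by push_cast; ring
    rw [ci, ci, ← intervalIntegral.integral_const_mul, ← intervalIntegral.integral_sub
      (Continuous.intervalIntegrable (by fun_prop) _ _) (Continuous.intervalIntegrable (by fun_prop) _ _)]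
    refine (intervalIntegral.norm_integral_le_of_norm_le_const (C := C / r * C') fun x hx => ?_).trans_eq ?_
    · rw [Set.uIoc_of_le (cell_le _ _)] at hx
      rw [← sub_mul, norm_mul]
      refine mul_le_mul ?_ (hC' x ⟨hp0.trans hx.1.le, hx.2.trans hp⟩) (norm_nonneg _) (by positivity)
      rw [hG]
      simp only [add_sub_add_left_eq_sub]
      rw [intervalIntegral.integral_interval_sub_left (hf.intervalIntegrable _ _) (hf.intervalIntegrable _ _)]
      refine (intervalIntegral.norm_integral_le_of_norm_le_const (C := C) fun y hy => ?_).trans ?_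
      · rw [Set.uIoc_of_ge hx.1.le] at hy
        exact hC y ⟨hp0.trans hy.1.le, hy.2.trans (hx.2.trans hp)⟩
      · rw [abs_sub_comm, abs_of_nonneg (sub_nonneg.2 hx.1.le), div_eq_mul_one_div C, ← hw]
        gcongr
        exact hx.2
    · rw [hw, abs_of_nonneg (by positivity)]; ring
  · simp only [card_univ, Fintype.card_fin, nsmul_eq_mul]
    field_simp

end Crest.Agent.R192.I
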