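import Crest.Agent.R192.I.Lam

/-! R192, block I (helper79): the finite determinant estimate (Andréief's identity). -/

set_option autoImplicit false

open Complex Finset Matrix ExteriorAlgebra
open scoped Nat

noncomputable section

namespace Crest.Agent.R192.I

variable {N k : ℕ} {Z : Type} [Fintype Z]

/-- the scaled Euclidean norm -/
def nl (lm : Fin N → ℝ) (v : Fin N → ℂ) : ℝ := √(∑ l, (‖v l‖ / lm l) ^ 2)

theorem nl_nonneg (lm : Fin N → ℝ) (v : Fin N → ℂ) : 0 ≤ nl lm v := Real.sqrt_nonneg _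

theorem sym (A : Z → Z → ℂ) (b : Z → Fin N → ℂ) (f : Fin k → Z) :
    (k ! : ℂ) • ∑ f' : Fin k → Z, (∏ j, A (f j) (f' j)) • ιMulti ℂ k (fun j => b (f' j)) =
      ∑ f' : Fin k → Z, (Matrix.of fun i j => A (f i) (f' j)).det • ιMulti ℂ k (fun j => b (f' j)) := by
  have h1 : ∀ f' : Fin k → Z, (Matrix.of fun i j => A (f i) (f' j)).det • ιMulti ℂ k (fun j => b (f' j)) =
      ∑ σ : Equiv.Perm (Fin k), (∏ j, A (f j) (f' (σ j))) • ιMulti ℂ k (fun j => b (f' (σ j))) := by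
    intro f'
    rw [← det_transpose, det_apply', sum_smul]
    refine sum_congr rfl fun σ _ => ?_
    have := (ιMulti ℂ k).map_perm (fun j => b (f' j)) σ
    rw [show (fun j => b (f' (σ j))) = (fun j => b (f' j)) ∘ σ from rfl, this, mul_comm, mul_smul]
    simp [Units.smul_def, Int.cast_smul_eq_zsmul]
  have h2 : ∀ σ : Equiv.Perm (Fin k),
      ∑ f' : Fin k → Z, (∏ j, A (f j) (f' (σ j))) • ιMulti ℂ k (fun j => b (f' (σ j))) =
        ∑ f' : Fin k → Z, (∏ j, A (f j) (f' j)) • ιMulti ℂ k (fun j => b (f' j)) := fun σ =>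
    Fintype.sum_equiv (Equiv.arrowCongr σ.symm (Equiv.refl Z)) _ _ fun f' => by simp [Equiv.arrowCongr_apply]
  simp only [h1]
  rw [sum_comm]
  simp only [h2]
  rw [sum_const, card_univ, Fintype.card_perm, Fintype.card_fin, Nat.cast_smul_eq_nsmul]

theorem andreief (A : Z → Z → ℂ) (a b : Z → Fin N → ℂ) (a₀ : Fin N → ℂ) :
    (k ! : ℂ) * Om k a₀ (∑ z, ∑ z', A z z' • vecMulVec (a z) (b z')) =
      (-1) ^ (k * (k - 1) / 2) * ∑ f : Fin k → Z, ∑ f' : Fin k → Z, (Matrix.of fun i j => A (f i) (f' j)).det *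
        top N (io a₀ * (ιMulti ℂ k (fun j => a (f j)) * ιMulti ℂ k (fun j => b (f' j)))) := by
  have h1 : om (∑ z, ∑ z', A z z' • vecMulVec (a z) (b z')) =
      ∑ p : Z × Z, A p.1 p.2 • (io (a p.1) * io (b p.2)) := by
    simp only [om_sum, om_smul, om_vecMulVec, Fintype.sum_prod_type]
  have h2 : om (∑ z, ∑ z', A z z' • vecMulVec (a z) (b z')) ^ k = ((-1 : ℂ) ^ (k * (k - 1) / 2)) •
      ∑ f : Fin k → Z, ιMulti ℂ k (fun j => a (f j)) *
        ∑ f' : Fin k → Z, (∏ j, A (f j) (f' j)) • ιMulti ℂ k (fun j => b (f' j)) := by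
    rw [h1, sum_pow_eq]
    simp only [prod_two_eq, mul_sum, smul_sum, mul_smul_comm]
    rw [← Fintype.sum_prod_type']
    exact Fintype.sum_equiv (Equiv.arrowProdEquivProdArrow _ _ _) _ _ fun F => by
      simp [smul_smul, mul_comm]
  rw [Om, h2, ← smul_eq_mul, ← map_smul, ← mul_smul_comm, smul_comm, smul_sum]
  simp only [← mul_smul_comm, sym]
  simp only [mul_sum, mul_smul_comm, map_smul, map_sum, smul_eq_mul]

theorem fin_est (lm : Fin N → ℝ) (hl : ∀ l, 0 < lm l) (A : Z → Z → ℂ) (a b : Z → Fin N → ℂ) (a₀ : Fin N → ℂ)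
    {C D : ℝ} (hC0 : 0 ≤ C) (hC : ∀ f f' : Fin k → Z, ‖(Matrix.of fun i j => A (f i) (f' j)).det‖ ≤ C)
    (hD0 : 0 ≤ D) (w : Z → ℝ) (hw0 : ∀ z, 0 ≤ w z)
    (hD : ∀ f : Fin k → Z, Function.Injective f → ∏ j, nl lm (b (f j)) ≤ D * ∏ j, w (f j)) :
    ‖Om k a₀ (∑ z, ∑ z', A z z' • vecMulVec (a z) (b z'))‖ ≤
      (∏ l, lm l) * (nl lm a₀ * C * (∑ z, nl lm (a z)) ^ k * (∑ z, w z) ^ k * D / k !) := by
  have hk : (0 : ℝ) < k ! := by positivity
  have hP : 0 ≤ ∏ l, lm l := prod_nonneg fun l _ => (hl l).le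
  have h := congrArg norm (andreief (k := k) A a b a₀)
  rw [norm_mul, norm_mul, norm_pow, norm_neg, norm_one, one_pow, one_mul, Complex.norm_natCast] at h
  rw [← mul_div_assoc, le_div_iff₀' hk, h, ← Fin.prod_const, ← Fin.prod_const, prod_univ_sum, prod_univ_sum,
    Fintype.piFinset_univ]
  simp only [mul_sum, sum_mul]
  rw [sum_comm]
  refine (norm_sum_le _ _).trans (sum_le_sum fun f' _ => (norm_sum_le _ _).trans (sum_le_sum fun f _ => ?_))
  have h0 : 0 ≤ ∏ j, nl lm (a (f j)) := prod_nonneg fun _ _ => nl_nonneg _ _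
  have h0' : 0 ≤ ∏ j, w (f' j) := prod_nonneg fun _ _ => hw0 _
  have h0'' := nl_nonneg lm a₀
  by_cases hi : Function.Injective f'
  · rw [norm_mul]
    have h1 := norm_top_multi_le lm hl k a₀ (fun j => a (f j)) (fun j => b (f' j))
    have h2 : ‖top N (io a₀ * (ιMulti ℂ k (fun j => a (f j)) * ιMulti ℂ k (fun j => b (f' j))))‖ ≤
        (∏ l, lm l) * (nl lm a₀ * ((∏ j, nl lm (a (f j))) * (D * ∏ j, w (f' j)))) :=
      h1.trans (by have := hD f' hi; unfold nl at *; gcongr)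
    refine (mul_le_mul (hC f f') h2 (norm_nonneg _) hC0).trans_eq (by ring)
  · rw [(ιMulti ℂ k).map_eq_zero_of_not_injective (fun j => b (f' j)) fun e => hi (Function.Injective.of_comp e)]
    simp only [mul_zero, map_zero, norm_zero]
    positivity

end Crest.Agent.R192.I
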