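import Crest.Agent.R192.Ext

/-! R192, block I (helper79): determinants of laminar matrices. -/

set_option autoImplicit false

open Complex Finset Matrix

namespace Crest.Agent.R192.I

variable {k : ℕ} {Ch : Type} [DecidableEq Ch]

theorem norm_sign (σ : Equiv.Perm (Fin k)) : ‖((Equiv.Perm.sign σ : ℤ) : ℂ)‖ = 1 := by
  rcases Int.units_eq_one_or (Equiv.Perm.sign σ) with h | h <;> simp [h]

theorem lam_mono (c c' : Fin k → Ch) (θ t : Fin k → ℕ) (ht : Monotone t) :
    ‖(Matrix.of fun i j => if c i = c' j ∧ θ i ≤ t j then (1 : ℂ) else 0).det‖ ≤ 1 := by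
  by_cases h : ∀ i, ∃ j, c i = c' j ∧ θ i ≤ t j
  swap
  · push Not at h
    obtain ⟨i, hi⟩ := h
    rw [det_eq_zero_of_row_eq_zero i fun j => by
      simp only [of_apply]; exact if_neg fun e => absurd e.2 (not_le.2 (hi j e.1))]
    simp
  have h' : ∀ i, ∃ m, (c i = c' m ∧ θ i ≤ t m) ∧ ∀ j, c i = c' j ∧ θ i ≤ t j → m ≤ j := fun i => by
    obtain ⟨m, hm, hmin⟩ := (univ.filter fun j => c i = c' j ∧ θ i ≤ t j).exists_min_image id
      (by obtain ⟨j, hj⟩ := h i; exact ⟨j, by simpa using hj⟩)
    exact ⟨m, by simpa using hm, fun j hj => hmin j (by simpa using hj)⟩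
  choose m hm hmin using h'
  set U : Matrix (Fin k) (Fin k) ℂ := Matrix.of fun j j' => if c' j = c' j' ∧ j ≤ j' then 1 else 0 with hU
  have e : (Matrix.of fun i j => if c i = c' j ∧ θ i ≤ t j then (1 : ℂ) else 0) = U.submatrix m id := by
    ext i j
    simp only [hU, of_apply, submatrix_apply, id]
    refine if_congr ⟨fun e => ⟨(hm i).1.symm.trans e.1, hmin i j e⟩, fun e => ?_⟩ rfl rfl
    exact ⟨(hm i).1.trans e.1, (hm i).2.trans (ht e.2)⟩
  rw [e]
  by_cases hi : Function.Injective m
  · have hb := Finite.injective_iff_bijective.1 hi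
    have hd : U.det = 1 := by
      rw [det_of_isUpperTriangular]
      · simp [hU]
      · intro i j hij
        simp only [hU, of_apply]
        exact if_neg fun e => absurd e.2 (not_le.2 hij)
    have := det_permute (Equiv.ofBijective m hb) U
    rw [Equiv.coe_ofBijective] at this
    rw [this, hd, mul_one, norm_sign]
  · rw [Function.Injective] at hi
    push Not at hi
    obtain ⟨i, j, hij, hne⟩ := hi
    rw [det_zero_of_row_eq hne (by ext l; simp [hij])]
    simp

theorem lam01 (c c' : Fin k → Ch) (θ t : Fin k → ℕ) :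
    ‖(Matrix.of fun i j => if c i = c' j ∧ θ i ≤ t j then (1 : ℂ) else 0).det‖ ≤ 1 := by
  have h := lam_mono c (c' ∘ Tuple.sort t) θ (t ∘ Tuple.sort t) (Tuple.monotone_sort t)
  have e := det_permute' (Tuple.sort t) (Matrix.of fun i j => if c i = c' j ∧ θ i ≤ t j then (1 : ℂ) else 0)
  have := congrArg norm e
  rw [norm_mul, norm_sign, one_mul] at this
  rw [← this]
  exact h

theorem lam {g : Ch → ℂ} {Kc : ℝ} (hK : ∀ S : Finset Ch, ∏ c ∈ S, ‖g c‖ ≤ Kc) (c c' : Fin k → Ch)
    (t t' : Fin k → ℕ) :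
    ‖(Matrix.of fun i j => if c i = c' j then g (c i) + (if t i < t' j then (1 : ℂ) else 0) else 0).det‖ ≤
      2 ^ k * Kc := by
  have hK0 : 0 ≤ Kc := le_trans (by simp) (hK ∅)
  set m : Fin k → Fin k → ℂ := fun i => g (c i) • fun j => if c i = c' j then 1 else 0 with hm
  set m' : Fin k → Fin k → ℂ := fun i j => if c i = c' j ∧ t i < t' j then 1 else 0 with hm'
  have e : (Matrix.of fun i j => if c i = c' j then g (c i) + (if t i < t' j then (1 : ℂ) else 0) else 0).det =
      detRowAlternating (m + m') := by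
    rw [det]
    congr 1
    ext i j
    simp only [hm, hm', of_apply, Pi.add_apply, Pi.smul_apply, smul_eq_mul]
    by_cases h1 : c i = c' j <;> simp [h1]
  rw [e, AlternatingMap.map_add_univ]
  refine (norm_sum_le _ _).trans ((sum_le_card_nsmul _ _ Kc fun S _ => ?_).trans_eq (by simp))
  set n : Fin k → Fin k → ℂ :=
    fun i j => if c i = c' j ∧ (if i ∈ S then 0 else t i + 1) ≤ t' j then (1 : ℂ) else 0 with hn
  have e2 : S.piecewise m m' = S.piecewise (fun i => g (c i) • n i) n := by
    ext i j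
    by_cases hi : i ∈ S
    · rw [piecewise_eq_of_mem _ _ _ hi, piecewise_eq_of_mem _ _ _ hi]
      simp [hm, hn, hi]
    · rw [piecewise_eq_of_notMem _ _ _ hi, piecewise_eq_of_notMem _ _ _ hi]
      simp [hm', hn, hi]
  have e3 : detRowAlternating (S.piecewise m m') = (∏ i ∈ S, g (c i)) • (Matrix.of n).det := by
    rw [e2]
    exact (detRowAlternating (R := ℂ) (n := Fin k)).toMultilinearMap.map_piecewise_smul _ _ _
  rw [e3, norm_smul]
  by_cases hi : Set.InjOn c S
  · rw [norm_prod, ← prod_image (f := fun x => ‖g x‖) hi]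
    exact (mul_le_of_le_one_right (prod_nonneg fun _ _ => norm_nonneg _) (lam01 _ _ _ _)).trans (hK _)
  · rw [Set.InjOn] at hi
    push Not at hi
    obtain ⟨i, hi, j, hj, hij, hne⟩ := hi
    rw [mem_coe] at hi hj
    rw [det_zero_of_row_eq hne (by ext l; simp [hn, hi, hj, hij])]
    simpa using hK0

end Crest.Agent.R192.I
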