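import Crest.Agent.R192.Iface
import Crest.Agent.R192.I.Cell

/-! R192, block I (helper79): the determinant estimate. -/

set_option autoImplicit false

open Complex Finset Filter MeasureTheory Matrix
open scoped Topology Nat

noncomputable section

namespace Crest.Agent.R192

namespace I

variable {N : ℕ}

theorem nl_le {lm : Fin N → ℝ} (hl : ∀ l, 0 < lm l) {a₀ : Fin N → ℂ} {K₀ : ℝ} (hK : 0 ≤ K₀)
    (h : ∀ l, ‖a₀ l‖ ≤ K₀ * lm l) : nl lm a₀ ≤ K₀ * √N := by
  rw [nl, ← Real.sqrt_sq hK, ← Real.sqrt_mul (sq_nonneg _)]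
  refine Real.sqrt_le_sqrt ((sum_le_card_nsmul _ _ (K₀ ^ 2) fun l _ => ?_).trans_eq (by simp [mul_comm]))
  exact pow_le_pow_left₀ (div_nonneg (norm_nonneg _) (hl l).le) ((div_le_iff₀ (hl l)).2 (h l)) 2

theorem nl_single {lm : Fin N → ℝ} (hl : ∀ l, 1 ≤ lm l) (i : Fin N) : nl lm (Pi.single i 1) ≤ 1 := by
  rw [nl, Real.sqrt_le_one, sum_eq_single i (fun l _ h => by simp [h]) (by simp)]
  have := hl i
  simp only [Pi.single_eq_same, norm_one]
  exact pow_le_one₀ (by positivity) (div_le_one_of_le₀ this (by positivity))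

theorem sum_cells {Z : Type} (s : Finset Z) {lm : Fin N → ℝ} (hl : ∀ l, 0 < lm l) {r : ℕ} (hr : r ≠ 0)
    {A : Z → ℝ → Fin N → ℂ} (hA : ∀ z, Continuous (A z)) :
    ∑ p : s × Fin r, nl lm (ci r (A p.1) p.2) ≤ ∫ σ in (0 : ℝ)..1, ∑ z ∈ s, nl lm (A z σ) := by
  rw [intervalIntegral.integral_finsetSum fun z _ => (continuous_nl hl (hA z)).intervalIntegrable _ _,
    Fintype.sum_prod_type, ← sum_coe_sort s fun z => ∫ σ in (0 : ℝ)..1, nl lm (A z σ)]
  refine sum_le_sum fun z _ => ?_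
  dsimp only
  exact sum_nl_ci hl hr (hA z.1)

end I

open I in
theorem stI : StI := by
  intro N k Z Ch s lm hlm a₀ K₀ hK₀ ha₀ MK bb ε hε hbb hMK ch gc Kc hKc A B hA hB η hηA hηB M hM
  classical
  have hl : ∀ l, 0 < lm l := fun l => one_pos.trans_le (hlm l)
  have hK0 : 0 ≤ Kc := le_trans (by simp) (hKc ∅)
  set Mr : ℕ → Matrix (Fin N) (Fin N) ℂ := fun r => Matrix.of fun i l => MK i l + ∑ z ∈ s, ∑ z' ∈ s,
    if ch z = ch z' then ∑ p : Fin r, ∑ p' : Fin r, (gc (ch z) + if (p : ℕ) < p' then 1 else 0) *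
      (ci r (fun σ => A z σ i) p * ci r (fun σ => B z' σ l) p') else 0 with hMr
  have hlim : Tendsto Mr atTop (𝓝 M) := by
    refine tendsto_pi_nhds.2 fun i => tendsto_pi_nhds.2 fun l => ?_
    rw [hM]
    refine tendsto_const_nhds.add (tendsto_finsetSum _ fun z _ => tendsto_finsetSum _ fun z' _ => ?_)
    by_cases h : ch z = ch z'
    · simp only [if_pos h]
      exact tendsto_cells ((continuous_apply i).comp (hA z)) ((continuous_apply l).comp (hB z')) _
    · simp only [if_neg h]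
      exact tendsto_const_nhds
  refine le_of_tendsto (((continuous_Om k).tendsto (a₀, M)).comp (tendsto_const_nhds.prodMk_nhds hlim)).norm ?_
  filter_upwards [eventually_ne_atTop 0] with r hr
  set c : Fin N ⊕ (s × Fin r) → Fin N ⊕ Ch := Sum.map id fun p => ch p.1 with hc
  set t : Fin N ⊕ (s × Fin r) → ℕ := Sum.elim (fun _ => 0) fun p => p.2 with ht
  set g : Fin N ⊕ Ch → ℂ := Sum.elim (fun _ => 1) gc with hg
  set a : Fin N ⊕ (s × Fin r) → Fin N → ℂ := Sum.elim (fun i => Pi.single i 1) fun p => ci r (A p.1) p.2 with ha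
  set b : Fin N ⊕ (s × Fin r) → Fin N → ℂ := Sum.elim (fun i => MK i) fun p => ci r (B p.1) p.2 with hb
  set w : Fin N ⊕ (s × Fin r) → ℝ := Sum.elim (fun _ => ε) fun p => nl lm (ci r (B p.1) p.2) with hw
  set d : Fin N ⊕ (s × Fin r) → ℝ := Sum.elim (fun i => max 1 (bb i / ε)) fun _ => 1 with hd
  have hd1 : ∀ z, 1 ≤ d z := by rintro (i | p) <;> simp [hd]
  have hw0 : ∀ z, 0 ≤ w z := by
    rintro (i | p)
    · exact hε.le
    · exact nl_nonneg _ _
  have hD0 : 0 ≤ ∏ i, max 1 (bb i / ε) := prod_nonneg fun _ _ => zero_le_one.trans (le_max_left _ _)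
  have hg' : ∀ S : Finset (Fin N ⊕ Ch), ∏ x ∈ S, ‖g x‖ ≤ Kc := fun S => by
    rw [prod_sum_eq_prod_toLeft_mul_prod_toRight]
    simpa [hg] using hKc _
  have e : Mr r = ∑ z, ∑ z', (if c z = c z' then g (c z) + (if t z < t z' then 1 else 0) else 0) •
      vecMulVec (a z) (b z') := by
    ext i l
    simp only [Matrix.sum_apply, Matrix.smul_apply, vecMulVec_apply, smul_eq_mul]
    simp only [hMr, of_apply, Fintype.sum_sum_type, hc, ht, hg, ha, hb, Sum.map_inl, Sum.map_inr, Sum.elim_inl, Sum.elim_inr, id,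
      Sum.inl.injEq, Sum.inr.injEq, reduceCtorEq, if_false, zero_mul, sum_const_zero, add_zero, zero_add,
      lt_irrefl, ite_mul, one_mul, sum_ite_eq, mem_univ, if_true, Fintype.sum_prod_type, ci_apply _ (hA _),
      ci_apply _ (hB _)]
    congr 1
    · simp [Pi.single_apply]
    · rw [← sum_coe_sort s]
      refine sum_congr rfl fun z _ => ?_
      rw [← sum_coe_sort s, sum_comm (s := (univ : Finset (Fin r)))]
      refine sum_congr rfl fun z' _ => ?_
      split_ifs <;> simp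
  have hbd : ∀ z, nl lm (b z) ≤ d z * w z := by
    rintro (i | p)
    · simp only [hb, hd, hw, Sum.elim_inl]
      refine (Real.sqrt_le_iff.2 ⟨hbb i, hMK i⟩).trans ?_
      exact (div_le_iff₀ hε).1 (le_max_right _ _)
    · simp [hb, hd, hw]
  have key := fin_est (k := k) lm hl (fun z z' => if c z = c z' then g (c z) + (if t z < t z' then 1 else 0) else 0)
    a b a₀ (C := 2 ^ k * Kc) (D := ∏ i, max 1 (bb i / ε)) (by positivity)
    (fun f f' => I.lam hg' (c ∘ f) (c ∘ f') (t ∘ f) (t ∘ f')) hD0 w hw0 fun f hf => by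
      refine (prod_le_prod (fun _ _ => nl_nonneg _ _) fun j _ => hbd (f j)).trans ?_
      rw [prod_mul_distrib]
      refine mul_le_mul_of_nonneg_right ?_ (prod_nonneg fun _ _ => hw0 _)
      rw [← prod_image (f := d) hf.injOn]
      refine (prod_le_prod_of_subset_of_one_le (subset_univ _) (fun z _ => zero_le_one.trans (hd1 z))
        fun z _ _ => hd1 z).trans_eq ?_
      simp [hd]
  have h1 : ∑ z, nl lm (a z) ≤ N + η := by
    rw [Fintype.sum_sum_type]
    exact add_le_add ((sum_le_card_nsmul _ _ 1 fun i _ => nl_single hlm i).trans_eq (by simp))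
      ((sum_cells s hl hr hA).trans hηA)
  have h2 : ∑ z, w z ≤ ε * N + η := by
    rw [Fintype.sum_sum_type]
    exact add_le_add (by simp [hw, mul_comm]) ((sum_cells s hl hr hB).trans hηB)
  have h3 := nl_le hl hK₀ ha₀
  have h4 : 0 ≤ ∑ z, nl lm (a z) := sum_nonneg fun _ _ => nl_nonneg _ _
  have h5 : 0 ≤ ∑ z, w z := sum_nonneg fun _ _ => hw0 _
  have h6 : 0 ≤ ∏ l, lm l := prod_nonneg fun l _ => (hl l).le
  have h7 := h4.trans h1
  show ‖Om k a₀ (Mr r)‖ ≤ _
  rw [e]
  refine key.trans ?_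
  rw [mul_assoc (K₀ * √N) Kc, mul_comm Kc]
  gcongr

end Crest.Agent.R192
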